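import Vale.Agent.P018.Main

open Polynomial

theorem Vale.Agent.Results.P018.PowerFree.result :
    (∀ (f : ℤ[X]) (k : ℕ), Irreducible (f.map (Int.castRingHom ℚ)) → 2 ≤ k →
      (f.natDegree ≤ 2 * k ∨ f.natDegree + 4 ≤ 3 * k) →
      Vale.Agent.P018.LocalCondition f k → Vale.Agent.P018.PredictedAsymptotic f k) ∧
    (∀ ε : ℝ, 0 < ε → ∃ d₀ : ℕ, ∀ (f : ℤ[X]) (k : ℕ),
      Irreducible (f.map (Int.castRingHom ℚ)) → 2 ≤ k → d₀ ≤ f.natDegree →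
      (1 / 4 + ε) * (f.natDegree : ℝ) ≤ (k : ℝ) →
      Vale.Agent.P018.LocalCondition f k → Vale.Agent.P018.PredictedAsymptotic f k) :=
  ⟨fun _ _ hf hk h hloc => Vale.Agent.P018.asymp_main hf hk hloc h,
    Vale.Agent.P018.asymp_quarter⟩
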